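import Vale.Agent.P004E.H253.K8

/-!
# P004H: `StTS` and `StST` from a weak form of the input on `L(s, sym²)`

`StN1w` asks for an error `(1 + log x)^{-2}` instead of a power saving.
-/

open Real MeasureTheory Set Filter
open scoped ENNReal Topology

namespace P004H

open P004G P004E

variable [Crv]

/-- `StN1` with a logarithmic saving -/
def StN1w : Prop := ∃ (C D : ℝ), 1 ≤ C ∧ ∀ x : ℝ, 1 ≤ x →
  |∑ a ∈ (Finset.Icc 1 ⌊x⌋₊).filter (fun a => Squarefree a ∧ a.Coprime bd),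
    (∏ p ∈ a.primeFactors, (lam p ^ 2 - 1)) / (a : ℝ) - D| ≤ C / (1 + Real.log x) ^ 2

/-- the decreasing weight `(1 + log⁺ x)^{-2}` -/
noncomputable def Ew (x : ℝ) : ℝ := 1 / (1 + Real.log (max 1 x)) ^ 2

omit [Crv] in
lemma lmax_nonneg (x : ℝ) : 0 ≤ Real.log (max 1 x) := Real.log_nonneg (le_max_left _ _)

omit [Crv] in
lemma Ew_pos (x : ℝ) : 0 < Ew x := by
  have := lmax_nonneg x
  unfold Ew
  positivity

omit [Crv] in
lemma Ew_le_one (x : ℝ) : Ew x ≤ 1 := by
  have := lmax_nonneg x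
  unfold Ew
  rw [div_le_one (by positivity)]
  exact one_le_pow₀ (by linarith)

omit [Crv] in
lemma Ew_of_le {x : ℝ} (hx : x ≤ 1) : Ew x = 1 := by
  unfold Ew
  rw [max_eq_left hx, Real.log_one]
  norm_num

omit [Crv] in
lemma Ew_of_ge {x : ℝ} (hx : 1 ≤ x) : Ew x = 1 / (1 + Real.log x) ^ 2 := by
  unfold Ew
  rw [max_eq_right hx]

omit [Crv] in
lemma Ew_anti {x y : ℝ} (h : x ≤ y) : Ew y ≤ Ew x := by
  have h1 := lmax_nonneg x
  have h2 : Real.log (max 1 x) ≤ Real.log (max 1 y) :=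
    Real.log_le_log (by positivity) (max_le_max le_rfl h)
  unfold Ew
  gcongr

omit [Crv] in
lemma measurable_Ew : Measurable Ew := by
  unfold Ew
  fun_prop

omit [Crv] in
/-- splitting off `n` -/
lemma Ew_div_le {x : ℝ} {n : ℕ} (hx : 0 < x) (hn : 1 ≤ n) :
    Ew (x / n) ≤ (1 + Real.log n) ^ 2 * Ew x := by
  have hn1 : (1 : ℝ) ≤ n := by exact_mod_cast hn
  have hn0 : (0 : ℝ) < n := by linarith
  have hl : 0 ≤ Real.log n := Real.log_nonneg hn1
  have h0 := lmax_nonneg (x / n)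
  have h1 := lmax_nonneg x
  have hkey : 1 + Real.log (max 1 x) ≤ (1 + Real.log n) * (1 + Real.log (max 1 (x / n))) := by
    have h2 : max 1 x ≤ n * max 1 (x / n) := by
      apply max_le
      · have := le_max_left 1 (x / (n : ℝ))
        nlinarith
      · calc x = n * (x / n) := by field_simp
          _ ≤ n * max 1 (x / n) := by gcongr; exact le_max_right _ _
    have h3 : Real.log (max 1 x) ≤ Real.log n + Real.log (max 1 (x / n)) := by
      rw [← Real.log_mul (by positivity) (by positivity)]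
      exact Real.log_le_log (by positivity) h2
    nlinarith [mul_nonneg hl h0]
  unfold Ew
  rw [mul_one_div, div_le_div_iff₀ (by positivity) (by positivity), one_mul, ← mul_pow]
  gcongr

omit [Crv] in
/-- `(1 + log n)² ≤ (1 + 2/η)² n^η` -/
lemma one_add_log_sq_le {n : ℕ} (hn : 1 ≤ n) {η : ℝ} (hη : 0 < η) :
    (1 + Real.log n) ^ 2 ≤ (1 + 2 / η) ^ 2 * (n : ℝ) ^ η := by
  have hn1 : (1 : ℝ) ≤ n := by exact_mod_cast hn
  have hn0 : (0 : ℝ) < n := by linarith
  have hl : 0 ≤ Real.log n := Real.log_nonneg hn1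
  have h1 : Real.log n ≤ (n : ℝ) ^ (η / 2) / (η / 2) :=
    Real.log_le_rpow_div hn0.le (by positivity)
  have h2 : (1 : ℝ) ≤ (n : ℝ) ^ (η / 2) := Real.one_le_rpow hn1 (by positivity)
  have h3 : 1 + Real.log n ≤ (1 + 2 / η) * (n : ℝ) ^ (η / 2) := by
    have e : (n : ℝ) ^ (η / 2) / (η / 2) = 2 / η * (n : ℝ) ^ (η / 2) := by
      field_simp
    rw [e] at h1
    linarith
  have h4 : ((n : ℝ) ^ (η / 2)) ^ 2 = (n : ℝ) ^ η := by
    rw [← Real.rpow_natCast, ← Real.rpow_mul hn0.le]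
    congr 1
    push_cast
    ring
  calc (1 + Real.log n) ^ 2 ≤ ((1 + 2 / η) * (n : ℝ) ^ (η / 2)) ^ 2 := by gcongr
    _ = _ := by rw [mul_pow, h4]

omit [Crv] in
/-- the integral of the weight -/
theorem Ew_tail {N : ℝ} (hN : 0 < N) :
    IntegrableOn (fun x : ℝ => Ew (x / N) / x) (Ioi N) ∧
      ∫ x in Ioi N, Ew (x / N) / x = 1 := by
  set g : ℝ → ℝ := fun x => -(1 + Real.log (x / N))⁻¹ with hg
  have hd : ∀ x ∈ Ioi N, HasDerivAt g (Ew (x / N) / x) x := by
    intro x hx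
    have hx1 : N < x := hx
    have hx0 : 0 < x := by linarith
    have hxN : 1 ≤ x / N := by rw [le_div_iff₀ hN]; linarith
    have hl : 0 ≤ Real.log (x / N) := Real.log_nonneg hxN
    have h1 : HasDerivAt (fun y : ℝ => y / N) (1 / N) x := (hasDerivAt_id x).div_const N
    have h2 : HasDerivAt (fun y : ℝ => Real.log (y / N)) ((1 / N) / (x / N)) x :=
      h1.log (by positivity)
    have h3 : HasDerivAt (fun y : ℝ => 1 + Real.log (y / N)) ((1 / N) / (x / N)) x :=
      h2.const_add 1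
    have h4 := (h3.inv (by positivity)).neg
    rw [Ew_of_ge hxN]
    have hx' : x ≠ 0 := hx0.ne'
    have hN' : N ≠ 0 := hN.ne'
    have hlp : 1 + Real.log (x / N) ≠ 0 := by positivity
    have e : (1 / N) / (x / N) = 1 / x := by field_simp
    rw [e] at h4
    have e2 : -(-(1 / x) / (1 + Real.log (x / N)) ^ 2) =
        1 / (1 + Real.log (x / N)) ^ 2 / x := by
      field_simp
    rw [e2] at h4
    exact h4
  have hc : ContinuousWithinAt g (Ici N) N := by
    have h1 : ContinuousAt (fun x : ℝ => Real.log (x / N)) N := by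
      apply ContinuousAt.log
      · fun_prop
      · rw [div_self hN.ne']; norm_num
    have h2 : ContinuousAt g N := by
      apply ContinuousAt.neg
      apply ContinuousAt.inv₀ (continuousAt_const.add h1)
      change 1 + Real.log (N / N) ≠ 0
      rw [div_self hN.ne', Real.log_one]
      norm_num
    exact h2.continuousWithinAt
  have hpos : ∀ x ∈ Ioi N, 0 ≤ Ew (x / N) / x := by
    intro x hx
    have hx1 : N < x := hx
    have := Ew_pos (x / N)
    have hx0 : 0 < x := by linarith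
    positivity
  have hlim : Tendsto g atTop (𝓝 0) := by
    have h1 : Tendsto (fun x : ℝ => x / N) atTop atTop := tendsto_id.atTop_div_const hN
    have h2 := Real.tendsto_log_atTop.comp h1
    have h3 : Tendsto (fun x : ℝ => 1 + Real.log (x / N)) atTop atTop :=
      tendsto_atTop_add_const_left _ _ h2
    have h4 := (tendsto_inv_atTop_zero.comp h3).neg
    simpa using h4
  refine ⟨integrableOn_Ioi_deriv_of_nonneg hc hd hpos hlim, ?_⟩
  rw [integral_Ioi_of_hasDerivAt_of_nonneg hc hd hpos hlim]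
  rw [hg]
  simp only
  rw [div_self hN.ne', Real.log_one]
  norm_num

namespace KW

open P004E.KT

/-- the fixed part, from `StN1w` -/
theorem PS_Gv_bound (hN : StN1w) : ∃ (C D : ℝ), 1 ≤ C ∧
    ∀ y : ℝ, 0 < y → |PS Gv y - D| ≤ C * Ew y := by
  obtain ⟨C, D, hC, hb⟩ := hN
  refine ⟨4 * C + |D|, D, by linarith [abs_nonneg D], fun y hy => ?_⟩
  rcases le_or_gt 1 y with h | h
  · rw [PS_Gv hy.le, Ew_of_ge h]
    have h2 : 1 ≤ √y := by rwa [Real.one_le_sqrt]
    refine (hb _ h2).trans ?_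
    have hl : 0 ≤ Real.log y := Real.log_nonneg h
    rw [Real.log_sqrt hy.le, mul_one_div]
    have h3 : (1 + Real.log y) ^ 2 ≤ 4 * (1 + Real.log y / 2) ^ 2 := by nlinarith
    rw [div_le_div_iff₀ (by positivity) (by positivity)]
    have h4 : 0 ≤ |D| * (1 + Real.log y / 2) ^ 2 := by positivity
    nlinarith
  · have h2 : PS Gv y = 0 := by
      unfold PS
      rw [Nat.floor_eq_zero.2 h]
      simp
    rw [h2, zero_sub, abs_neg, Ew_of_le h.le]
    linarith

/-- **the tails of `κ`** -/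
theorem PS_κ_bound (hN : StN1w) (hH : Hlam) : ∃ C : ℝ, 1 ≤ C ∧
    ∀ (h : ℤ) (q : ℕ) (η : ℝ), h ≠ 0 → q ≠ 0 → 0 < η → η ≤ 1 / 100 → ∃ D : ℝ, ∀ x : ℝ, 0 < x →
      |PS (κv h q) x - D| ≤
        C * (1 + 2 / η) ^ 2 * Real.exp (4 * Vs η (h.natAbs * q)) * Ew x := by
  obtain ⟨C, D, hC, hb⟩ := PS_Gv_bound hN
  refine ⟨C * Real.exp C54, ?_, fun h q η hh hq h0 h1 => ?_⟩
  · have h1 : 0 ≤ C54 := by
      unfold C54
      have : 0 ≤ ∑' n : ℕ, (n : ℝ) ^ (-(5 / 4) : ℝ) := tsum_nonneg fun n => by positivity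
      positivity
    have h2 := Real.one_le_exp h1
    nlinarith
  have hs0 := w_sum_le hH hh hq h0.le h1
  have hsη : Summable fun n : ℕ => |wv h q n| * (n : ℝ) ^ η :=
    summable_of_sum_range_le (fun n => by positivity) hs0
  have hsη' := Real.tsum_le_of_sum_range_le (fun n => by positivity) hs0
  have hsw : Summable fun n : ℕ => wv h q n := by
    refine Summable.of_norm_bounded hsη fun n => ?_
    rcases Nat.eq_zero_or_pos n with rfl | hn
    · simp
    rw [Real.norm_eq_abs]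
    have : (1 : ℝ) ≤ (n : ℝ) ^ η := Real.one_le_rpow (by exact_mod_cast hn) h0.le
    nlinarith [abs_nonneg (wv h q n)]
  refine ⟨D * ∑' n, wv h q n, fun x hx => ?_⟩
  have e1 : PS (κv h q) x = ∑' n : ℕ, wv h q n * PS Gv (x / n) := by
    rw [κ_eq, PS_mul]
    symm
    refine tsum_eq_sum fun n hn => ?_
    rcases Nat.eq_zero_or_pos n with rfl | hn0
    · simp
    have hn' : (0 : ℝ) < n := by exact_mod_cast hn0
    have h2 : PS Gv (x / n) = 0 := by
      unfold PS
      rw [Nat.floor_eq_zero.2]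
      · simp
      · rw [div_lt_one hn']
        rw [Finset.mem_Ioc] at hn
        exact (Nat.floor_lt hx.le).1 (by omega)
    rw [h2, mul_zero]
  have hE0 := Ew_pos x
  have hterm : ∀ n : ℕ, ‖wv h q n * PS Gv (x / n) - D * wv h q n‖ ≤
      (C * (1 + 2 / η) ^ 2 * Ew x) * (|wv h q n| * (n : ℝ) ^ η) := by
    intro n
    rcases Nat.eq_zero_or_pos n with rfl | hn0
    · simp
    have hn' : (0 : ℝ) < n := by exact_mod_cast hn0
    have h2 := hb (x / n) (by positivity)
    have e2 : wv h q n * PS Gv (x / n) - D * wv h q n = wv h q n * (PS Gv (x / n) - D) := by ring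
    rw [e2, Real.norm_eq_abs, abs_mul]
    have h3 : Ew (x / n) ≤ (1 + 2 / η) ^ 2 * (n : ℝ) ^ η * Ew x :=
      (Ew_div_le hx hn0).trans (by
        gcongr
        exact one_add_log_sq_le hn0 h0)
    calc |wv h q n| * |PS Gv (x / n) - D| ≤ |wv h q n| * (C * Ew (x / n)) := by gcongr
      _ ≤ |wv h q n| * (C * ((1 + 2 / η) ^ 2 * (n : ℝ) ^ η * Ew x)) := by gcongr
      _ = _ := by ring
  have hsum2 : Summable fun n : ℕ => wv h q n * PS Gv (x / n) - D * wv h q n :=
    Summable.of_norm_bounded (hsη.mul_left _) hterm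
  have hsum3 : Summable fun n : ℕ => wv h q n * PS Gv (x / n) := by
    refine (hsum2.add (hsw.mul_left D)).congr fun n => ?_
    ring
  rw [e1, ← tsum_mul_left, ← hsum3.tsum_sub (hsw.mul_left D), ← Real.norm_eq_abs]
  refine (norm_tsum_le_tsum_norm hsum2.norm).trans ?_
  refine (hsum2.norm.tsum_le_tsum hterm (hsη.mul_left _)).trans ?_
  rw [tsum_mul_left]
  calc C * (1 + 2 / η) ^ 2 * Ew x * ∑' n : ℕ, |wv h q n| * (n : ℝ) ^ η
      ≤ C * (1 + 2 / η) ^ 2 * Ew x * Real.exp (C54 + 4 * Vs η (h.natAbs * q)) := by gcongr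
    _ = _ := by rw [Real.exp_add]; ring

/-- the data for a given `L` -/
theorem data (hN : StN1w) (hH : Hlam) : ∃ C : ℝ, 1 ≤ C ∧
    ∀ (L : ℝ), 1 ≤ L → ∀ (h : ℤ) (q : ℕ), h ≠ 0 → q ≠ 0 → |(h : ℝ)| * q ≤ Real.exp L →
      ∃ D : ℝ, ∀ x : ℝ, 0 < x → |PS (κv h q) x - D| ≤
        (C * Real.log (3 + L) ^ 98) * Ew x := by
  obtain ⟨C, hC, hb⟩ := PS_κ_bound hN hH
  refine ⟨C * 201 ^ 2 * (Real.exp 160 * 2 ^ 96), ?_, fun L hL h q hh hq hlog => ?_⟩
  · have h1 : 1 ≤ Real.exp 160 := Real.one_le_exp (by norm_num)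
    have h2 : 1 ≤ Real.exp 160 * 2 ^ 96 := by nlinarith
    have h3 : 1 ≤ C * 201 ^ 2 := by nlinarith
    nlinarith
  have hl := log_ge_one hL
  have hη0 : 0 < (1 / 100 : ℝ) / Real.log (3 + L) := by positivity
  have hη1 : (1 / 100 : ℝ) / Real.log (3 + L) ≤ 1 / 100 := div_le_self (by norm_num) hl
  obtain ⟨D, hD⟩ := hb h q ((1 / 100 : ℝ) / Real.log (3 + L)) hh hq hη0 hη1
  refine ⟨D, fun x hx => (hD x hx).trans ?_⟩
  have hM0 : h.natAbs * q ≠ 0 := mul_ne_zero (Int.natAbs_ne_zero.2 hh) hq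
  have hML : Real.log ((h.natAbs * q : ℕ) : ℝ) ≤ L := by
    rw [← Real.log_exp L]
    apply Real.log_le_log
    · exact_mod_cast Nat.pos_of_ne_zero hM0
    · push_cast
      rwa [Nat.cast_natAbs, Int.cast_abs]
  have h2 := exp_Vs_le hL hM0 hML hη0.le (by
    rw [mul_assoc, div_mul_cancel₀ _ (by linarith : Real.log (3 + L) ≠ 0)]
    norm_num)
  have h3 := Ew_pos x
  have h4 : 1 + 2 / ((1 / 100 : ℝ) / Real.log (3 + L)) ≤ 201 * Real.log (3 + L) := by
    have e : 2 / ((1 / 100 : ℝ) / Real.log (3 + L)) = 200 * Real.log (3 + L) := by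
      field_simp
      norm_num
    rw [e]
    linarith
  calc C * (1 + 2 / ((1 / 100 : ℝ) / Real.log (3 + L))) ^ 2 *
        Real.exp (4 * Vs ((1 / 100 : ℝ) / Real.log (3 + L)) (h.natAbs * q)) * Ew x
      ≤ C * (201 * Real.log (3 + L)) ^ 2 *
        (Real.exp 160 * (2 * Real.log (3 + L)) ^ 96) * Ew x := by
        gcongr
    _ = _ := by rw [_root_.mul_pow, _root_.mul_pow]; ring

end KW
end P004H
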