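import Vale.Agent.P004H.H404.KW

/-!
# P004H: `StTS` and `StST` from `StN1w`
-/

open Real MeasureTheory Set Filter
open scoped ENNReal Topology

namespace P004H

open P004G P004E

variable [Crv]

namespace KW

open P004E.KT hiding PS_Gv_bound PS_κ_bound data

/-- **Module S2a** -/
theorem pfTS (hN : StN1w) (hH : StHlam) : StTS := by
  classical
  intro ε hε
  obtain ⟨C₀, hC₀, hdata⟩ := data hN hH
  obtain ⟨C₁, hC₁, hlogp⟩ := log_pow_le 196 hε
  refine ⟨16 * (3 * C₀) ^ 2 * C₁, ?_, ?_⟩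
  · have h1 : 1 ≤ 3 * C₀ := by linarith
    have h2 : 1 ≤ (3 * C₀) ^ 2 := one_le_pow₀ h1
    nlinarith
  intro L B u n S w hL hu hB hS hSw k hk
  have hl := log_ge_one hL
  set M₁ := C₀ * Real.log (3 + L) ^ 98 with hM₁
  have hM₁1 : 1 ≤ M₁ := by
    have : 1 ≤ Real.log (3 + L) ^ 98 := one_le_pow₀ hl
    nlinarith
  have hex : ∀ h : ℤ, ∃ D : ℝ, h ∈ S → ∀ x : ℝ, 0 < x → |PS (κv h 1) x - D| ≤ M₁ * Ew x := by
    intro h
    by_cases hh : h ∈ S
    · obtain ⟨D, hD⟩ := hdata L hL h 1 (hS h hh).1 one_ne_zero (by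
        rw [Nat.cast_one, mul_one]
        exact (hS h hh).2.1)
      exact ⟨D, fun _ => hD⟩
    · exact ⟨0, fun h1 => absurd h1 hh⟩
  choose D hD using hex
  have hk1 : Kn 1 k := kn_mono hk (by omega)
  have hk0 : Kn 0 k := kn_mono hk (by omega)
  have hkn : Kn n k := kn_mono hk (by omega)
  have hk' : Kn n (deriv k) := kn_deriv hk
  have hk'0 : Kn 0 (deriv k) := kn_mono hk' (by omega)
  have hPS : ∀ h ∈ S, ∀ x : ℝ, 1 ≤ x → |PS (κv h 1 + dl 1 (-D h)) x| ≤ M₁ * Ew x := by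
    intro h hh x hx
    rw [PS_add, PS_dl one_ne_zero _ (by linarith), Nat.cast_one, if_pos hx, ← sub_eq_add_neg]
    exact hD h hh x (by linarith)
  have hPS1 : ∀ h ∈ S, ∀ x : ℝ, 1 ≤ x → |PS (κv h 1 + dl 1 (-D h)) x| ≤ M₁ := by
    intro h hh x hx
    refine (hPS h hh x hx).trans ?_
    have := Ew_le_one x
    nlinarith
  obtain ⟨hGi, hGv⟩ := Ew_tail one_pos
  simp only [div_one] at hGi hGv
  have hms := ms (S := S) (w := w) (fun h hh => (hS h hh).2.2)
    (T := fun h => tr (av h 1) (kap k) u) (I := {1}) (e := fun h _ => D h)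
    (A := fun h _ => tr (bv h 1) (kap k) u) (E := fun _ => 1 + M₁)
    (f := fun h x => tr (bv h 1) (kap (deriv k)) (x * u))
    (g := fun h x => PS (κv h 1 + dl 1 (-D h)) x / x)
    (G := fun x => M₁ * (Ew x / x)) (μ := volume.restrict (Ioi 1)) hB
    (fun r _ => by positivity)
    (fun h hh => by
      rw [Finset.sum_singleton]
      exact ident_TS hH h 1 (D h) hk1 hu)
    (fun h hh r _ => by
      have h1 := hD h hh 1 one_pos
      rw [PS_one_eq (κ_mult h 1).map_one, Ew_of_le le_rfl, mul_one] at h1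
      have h2 := abs_sub_abs_le_abs_sub (D h) 1
      rw [abs_one, abs_sub_comm] at h2
      linarith)
    (fun r _ => by
      have h1 := hSw u le_rfl k hkn
      refine le_trans (le_of_eq ?_) h1
      refine Finset.sum_congr rfl fun h _ => ?_
      rw [Sw_eq hk0 hu])
    ((ae_restrict_iff' measurableSet_Ioi).2 (Eventually.of_forall fun x hx h hh => by
      have hx1 : (1 : ℝ) < x := hx
      have hx0 : (0 : ℝ) < x := by linarith
      rw [abs_div, abs_of_pos hx0, div_le_iff₀ hx0]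
      refine (hPS h hh x hx1.le).trans (le_of_eq ?_)
      field_simp))
    (hGi.const_mul M₁)
    ((ae_restrict_iff' measurableSet_Ioi).2 (Eventually.of_forall fun x hx => by
      have hx1 : (1 : ℝ) < x := hx
      have hx0 : (0 : ℝ) < x := by linarith
      have hE := Ew_pos x
      refine Or.inr ⟨by positivity, ?_⟩
      have h1 := hSw (x * u) (by nlinarith) (deriv k) hk'
      refine le_trans (le_of_eq ?_) h1
      refine Finset.sum_congr rfl fun h _ => ?_
      rw [Sw_eq hk'0 (by positivity)]))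
    (fun h hh => int_PS (Pb_bv h 1) (measurable_kap hk'0) (kap_bd hk'0) hu (hPS1 h hh))
  rw [Finset.sum_singleton, integral_const_mul, hGv, mul_one] at hms
  have hfac : 1 + M₁ + M₁ ≤ (3 * C₀) * Real.log (3 + L) ^ 98 := by
    have h4 : (3 * C₀) * Real.log (3 + L) ^ 98 = 3 * M₁ := by
      rw [hM₁]; ring
    rw [h4]
    linarith
  calc ∑ h ∈ S, w h * Tw h u k ^ 2 = 16 * ∑ h ∈ S, w h * tr (av h 1) (kap k) u ^ 2 := by
        rw [Finset.mul_sum]
        refine Finset.sum_congr rfl fun h _ => ?_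
        rw [Tw_eq hk0 hu]
        ring
    _ ≤ 16 * ((1 + M₁ + M₁) ^ 2 * B) := by gcongr
    _ ≤ 16 * (((3 * C₀) * Real.log (3 + L) ^ 98) ^ 2 * B) := by
        have : 0 ≤ 1 + M₁ + M₁ := by positivity
        gcongr
    _ = 16 * (3 * C₀) ^ 2 * Real.log (3 + L) ^ 196 * B := by ring
    _ ≤ 16 * (3 * C₀) ^ 2 * (C₁ * L ^ ε) * B := by
        gcongr
        exact hlogp L hL
    _ = _ := by ring

/-! ### `StST` -/

/-- the tails of the convolution -/
theorem PS_cc_bound {h : ℤ} {q N : ℕ} {D M₁ : ℝ} (hM : 0 ≤ M₁)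
    (hD : ∀ x : ℝ, 0 < x → |PS (κv h q) x - D| ≤ M₁ * Ew x) {x : ℝ} (hx : 0 < x) (hN : 0 < N) :
    |PS (cc h q N) x - (∑ n ∈ Finset.range N, ev h q n) * D| ≤
      M₁ * PS Em N * Ew (x / N) := by
  classical
  set m := max ⌊x⌋₊ N with hm
  have hN' : (0 : ℝ) < N := by exact_mod_cast hN
  have e1 : PS (cc h q N) x = ∑ n ∈ Finset.Ioc 0 m, er h q N n * PS (κv h q) (x / n) := by
    rw [cc, PS_mul]
    refine Finset.sum_subset (fun n hn => ?_) fun n hn hn2 => ?_
    · rw [Finset.mem_Ioc] at hn ⊢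
      exact ⟨hn.1, hn.2.trans (le_max_left _ _)⟩
    · rw [Finset.mem_Ioc] at hn hn2
      have hn' : (0 : ℝ) < n := by exact_mod_cast hn.1
      have h3 : PS (κv h q) (x / n) = 0 := by
        unfold PS
        rw [Nat.floor_eq_zero.2]
        · simp
        · rw [div_lt_one hn']
          exact (Nat.floor_lt hx.le).1 (by omega)
      rw [h3, mul_zero]
  have e2 : ∑ n ∈ Finset.range N, ev h q n = ∑ n ∈ Finset.Ioc 0 m, er h q N n := by
    have h3 : ∑ n ∈ Finset.range N, ev h q n = ∑ n ∈ Finset.range N, er h q N n :=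
      Finset.sum_congr rfl fun n hn => by rw [er_apply, if_pos (Finset.mem_range.1 hn)]
    have h4 : ∑ n ∈ Finset.range N, er h q N n = ∑ n ∈ Finset.range (m + 1), er h q N n := by
      refine Finset.sum_subset (Finset.range_mono ?_) fun n _ hn => ?_
      · have := le_max_right ⌊x⌋₊ N
        omega
      · rw [er_apply, if_neg (fun h5 => hn (Finset.mem_range.2 h5))]
    rw [h3, h4]
    symm
    refine Finset.sum_subset (fun n hn => ?_) fun n hn h5 => ?_
    · rw [Finset.mem_Ioc] at hn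
      rw [Finset.mem_range]
      omega
    · rw [Finset.mem_Ioc] at h5
      rw [Finset.mem_range] at hn
      have : n = 0 := by omega
      rw [this]
      simp
  have hEN := Ew_pos (x / N)
  rw [e1, e2, Finset.sum_mul, ← Finset.sum_sub_distrib]
  refine (Finset.abs_sum_le_sum_abs _ _).trans ?_
  have h6 : ∀ n ∈ Finset.Ioc 0 m, |er h q N n * PS (κv h q) (x / n) - er h q N n * D| ≤
      (if n < N then Em n else 0) * (M₁ * Ew (x / N)) := by
    intro n hn
    rw [Finset.mem_Ioc] at hn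
    have hn' : (0 : ℝ) < n := by exact_mod_cast hn.1
    rw [← mul_sub, abs_mul]
    split_ifs with h7
    · have h8 : (n : ℝ) ≤ N := by exact_mod_cast h7.le
      have h9 : Ew (x / n) ≤ Ew (x / N) := Ew_anti (by gcongr)
      calc |er h q N n| * |PS (κv h q) (x / n) - D| ≤ Em n * (M₁ * Ew (x / n)) := by
            have := Em_nonneg n
            gcongr
            · exact abs_er_le h q N n
            · exact hD _ (by positivity)
        _ ≤ Em n * (M₁ * Ew (x / N)) := by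
            have := Em_nonneg n
            gcongr
    · rw [er_apply, if_neg h7, abs_zero, zero_mul, zero_mul]
  refine (Finset.sum_le_sum h6).trans ?_
  rw [← Finset.sum_mul]
  have h10 : ∑ n ∈ Finset.Ioc 0 m, (if n < N then Em n else 0) ≤ PS Em N := by
    rw [← Finset.sum_filter]
    unfold PS
    rw [Nat.floor_natCast]
    refine Finset.sum_le_sum_of_subset_of_nonneg (fun n hn => ?_) fun n _ _ => Em_nonneg n
    rw [Finset.mem_filter] at hn
    rw [Finset.mem_range]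
    omega
  calc (∑ n ∈ Finset.Ioc 0 m, (if n < N then Em n else 0)) * (M₁ * Ew (x / N))
      ≤ PS Em N * (M₁ * Ew (x / N)) := by
        gcongr
    _ = _ := by ring

theorem PShigh {h : ℤ} {q N : ℕ} (hN : 2 ≤ N) {D M : ℝ}
    (hb : ∀ x : ℝ, 0 < x → |PS (cc h q N) x - D| ≤ M * Ew (x / N)) {x : ℝ} (hx : (N : ℝ) ≤ x) :
    |PS (cc h q N + (dl 1 (-1) + dl N (1 - D))) x| ≤ M * Ew (x / N) := by
  have hN2 : (2 : ℝ) ≤ N := by exact_mod_cast hN
  rw [PS_add, PS_add, PS_dl one_ne_zero _ (by linarith), PS_dl (by omega) _ (by linarith),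
    Nat.cast_one, if_pos (by linarith : (1 : ℝ) ≤ x), if_pos hx]
  have h1 := hb x (by linarith)
  refine le_trans (le_of_eq ?_) h1
  congr 1
  ring

theorem one_sub_le {h : ℤ} {q N : ℕ} (hN : 2 ≤ N) {D M : ℝ} (hM : 0 ≤ M)
    (hb : ∀ x : ℝ, 0 < x → |PS (cc h q N) x - D| ≤ M * Ew (x / N)) :
    |1 - D| ≤ 2 * M := by
  have hN2 : (2 : ℝ) ≤ N := by exact_mod_cast hN
  have h2 := hb (N - 1) (by linarith)
  rw [PS_cc_one (by linarith) (by linarith)] at h2
  refine h2.trans ?_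
  have h4 := Ew_le_one (((N : ℝ) - 1) / N)
  nlinarith

/-- the weight -/
noncomputable def GG (N : ℕ) (M : ℝ) : ℝ → ℝ :=
  (Ici (N : ℝ)).indicator (fun x => M * (Ew (x / N) / x))

omit [Crv] in
theorem GG_int {N : ℕ} (hN : 2 ≤ N) (M : ℝ) :
    Integrable (GG N M) (volume.restrict (Ioi 1)) ∧
      ∫ x, GG N M x ∂(volume.restrict (Ioi 1)) = M := by
  have hN2 : (2 : ℝ) ≤ N := by exact_mod_cast hN
  have hN0 : (0 : ℝ) < N := by linarith
  obtain ⟨hGi, hGv⟩ := Ew_tail hN0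
  have hGi' : IntegrableOn (fun x : ℝ => M * (Ew (x / N) / x)) (Ici (N : ℝ)) := by
    rw [integrableOn_Ici_iff_integrableOn_Ioi]
    exact hGi.const_mul _
  refine ⟨((integrable_indicator_iff measurableSet_Ici).2 hGi').restrict, ?_⟩
  unfold GG
  rw [setIntegral_indicator measurableSet_Ici]
  have e1 : (Ioi (1 : ℝ) ∩ Ici (N : ℝ) : Set ℝ) = Ici (N : ℝ) := by
    ext x
    simp only [Set.mem_inter_iff, Set.mem_Ioi, Set.mem_Ici]
    constructor
    · exact fun h => h.2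
    · exact fun h => ⟨by linarith, h⟩
  rw [e1, integral_Ici_eq_integral_Ioi, integral_const_mul, hGv, mul_one]

theorem g_le {h : ℤ} {q N : ℕ} (hN : 2 ≤ N) {D M : ℝ}
    (hb : ∀ x : ℝ, 0 < x → |PS (cc h q N) x - D| ≤ M * Ew (x / N)) {x : ℝ} (hx1 : 1 < x) :
    |-(PS (cc h q N + (dl 1 (-1) + dl N (1 - D))) x / x)| ≤ GG N M x := by
  have hN2 : (2 : ℝ) ≤ N := by exact_mod_cast hN
  have hN0 : (0 : ℝ) < N := by linarith
  have hx0 : (0 : ℝ) < x := by linarith
  rw [abs_neg, abs_div, abs_of_pos hx0, div_le_iff₀ hx0]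
  unfold GG
  rcases lt_or_ge x N with h1 | h1
  · rw [PSlow hN D hx1.le h1, abs_zero, Set.indicator_of_notMem (by simpa using h1)]
    simp
  · refine (PShigh hN hb h1).trans (le_of_eq ?_)
    rw [Set.indicator_of_mem (by simpa using h1)]
    field_simp

theorem PS_bdd {h : ℤ} {q N : ℕ} (hN : 2 ≤ N) {D M : ℝ} (hM : 0 ≤ M)
    (hb : ∀ x : ℝ, 0 < x → |PS (cc h q N) x - D| ≤ M * Ew (x / N)) {x : ℝ} (hx : 1 ≤ x) :
    |PS (cc h q N + (dl 1 (-1) + dl N (1 - D))) x| ≤ M := by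
  rcases lt_or_ge x N with h1 | h1
  · rw [PSlow hN D hx h1, abs_zero]
    exact hM
  · refine (PShigh hN hb h1).trans ?_
    have h2 := Ew_le_one (x / N)
    nlinarith

/-- the core of `StST` -/
theorem core_ST (hH : Hlam) {S : Finset ℤ} {w : ℤ → ℝ} (hw : ∀ h ∈ S, 0 ≤ w h) {q n N : ℕ}
    (hN : 2 ≤ N) {u M Es B₁ B₂ : ℝ} (hu : 0 < u) (hM : 0 ≤ M)
    (hEsv : Es = ∑ r ∈ Finset.range (N + 1), Em r) (hB₁ : 0 ≤ B₁) (hB₂ : 0 ≤ B₂)
    (D : ℤ → ℝ) (hb : ∀ h ∈ S, ∀ x : ℝ, 0 < x → |PS (cc h q N) x - D h| ≤ M * Ew (x / N))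
    (hTw : ∀ u' : ℝ, u ≤ u' → ∀ k, Kn n k → ∑ h ∈ S, w h * Tw (h * q ^ 2) u' k ^ 2 ≤ B₁)
    (hSw : ∀ u' : ℝ, u * N ≤ u' → ∀ k, Kn n k → ∑ h ∈ S, w h * Sw h q u' k ^ 2 ≤ B₂)
    {k : ℝ → ℝ} (hk : Kn (n + 1) k) :
    ∑ h ∈ S, w h * Sw h q u k ^ 2 ≤ (Es + 2 * M + M) ^ 2 * (B₁ + B₂) := by
  have hN2 : (2 : ℝ) ≤ N := by exact_mod_cast hN
  have hN0 : (0 : ℝ) < N := by linarith
  have hk1 : Kn 1 k := kn_mono hk (by omega)
  have hk0 : Kn 0 k := kn_mono hk (by omega)
  have hkn : Kn n k := kn_mono hk (by omega)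
  have hk' : Kn n (deriv k) := kn_deriv hk
  have hk'0 : Kn 0 (deriv k) := kn_mono hk' (by omega)
  obtain ⟨hGint, hGval⟩ := GG_int hN M
  have hB : 0 ≤ B₁ + B₂ := by linarith
  obtain ⟨hs0, hs1⟩ := sumE_le hEsv hM
  have hms := ms (S := S) (w := w) hw
    (T := fun h => tr (bv h q) (kap k) u) (I := Finset.Icc 1 N)
    (e := fun h r => if r < N then ev h q r else 1 - D h)
    (A := fun h r => if r < N then tr (av h q) (kap k) (r * u) else tr (bv h q) (kap k) (N * u))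
    (E := fun r => if r < N then Em r else 2 * M)
    (f := fun h x => tr (bv h q) (kap (deriv k)) (x * u))
    (g := fun h x => -(PS (cc h q N + (dl 1 (-1) + dl N (1 - D h))) x / x))
    (G := GG N M) (μ := volume.restrict (Ioi 1)) hB
    (fun r _ => by
      split_ifs
      · exact Em_nonneg r
      · positivity)
    (fun h hh => ident_ST' hH h q hN (D h) hk1 hu)
    (fun h hh r _ => by
      split_ifs
      · exact abs_ev_le h q r
      · exact one_sub_le hN hM (hb h hh))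
    (fun r hr => by
      rw [Finset.mem_Icc] at hr
      have hr1 : (1 : ℝ) ≤ r := by exact_mod_cast hr.1
      split_ifs
      · have h1 := hTw (r * u) (by nlinarith) k hkn
        calc ∑ h ∈ S, w h * tr (av h q) (kap k) (r * u) ^ 2
            = (∑ h ∈ S, w h * Tw (h * q ^ 2) (r * u) k ^ 2) / 16 := by
              rw [Finset.sum_div]
              refine Finset.sum_congr rfl fun h _ => ?_
              rw [Tw_sq_eq hk0 (by positivity)]
              ring
          _ ≤ B₁ + B₂ := by linarith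
      · have h1 := hSw (N * u) (by nlinarith) k hkn
        calc ∑ h ∈ S, w h * tr (bv h q) (kap k) (N * u) ^ 2
            = ∑ h ∈ S, w h * Sw h q (N * u) k ^ 2 := by
              refine Finset.sum_congr rfl fun h _ => ?_
              rw [Sw_eq hk0 (by positivity)]
          _ ≤ B₁ + B₂ := by linarith)
    ((ae_restrict_iff' measurableSet_Ioi).2 (Eventually.of_forall fun x hx h hh =>
      g_le hN (hb h hh) hx))
    hGint
    ((ae_restrict_iff' measurableSet_Ioi).2 (Eventually.of_forall fun x hx => by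
      have hx1 : (1 : ℝ) < x := hx
      have hx0 : (0 : ℝ) < x := by linarith
      rcases lt_or_ge x N with h1 | h1
      · left
        rw [GG, Set.indicator_of_notMem (by simpa using h1)]
      · right
        refine ⟨?_, ?_⟩
        · rw [GG, Set.indicator_of_mem (by simpa using h1)]
          have := Ew_pos (x / N)
          positivity
        · have h2 := hSw (x * u) (by nlinarith) (deriv k) hk'
          calc ∑ h ∈ S, w h * tr (bv h q) (kap (deriv k)) (x * u) ^ 2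
              = ∑ h ∈ S, w h * Sw h q (x * u) (deriv k) ^ 2 := by
                refine Finset.sum_congr rfl fun h _ => ?_
                rw [Sw_eq hk'0 (by positivity)]
            _ ≤ B₁ + B₂ := by linarith))
    (fun h hh => by
      have h1 := (int_PS (Pb_bv h q) (measurable_kap hk'0) (kap_bd hk'0) hu
        (fun x hx => PS_bdd hN hM (hb h hh) hx)).neg
      refine h1.congr (Eventually.of_forall fun x => ?_)
      simp only [Pi.neg_apply]
      ring)
  rw [hGval] at hms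
  have hTS : ∑ h ∈ S, w h * Sw h q u k ^ 2 = ∑ h ∈ S, w h * tr (bv h q) (kap k) u ^ 2 := by
    refine Finset.sum_congr rfl fun h _ => ?_
    rw [Sw_eq hk0 hu]
  rw [hTS]
  refine hms.trans ?_
  gcongr

omit [Crv] in
theorem num_fin {a Λ Es X Y C₁ C₂ B F : ℝ} (ha : 0 ≤ a) (hΛ : 0 ≤ Λ) (hEs : 0 ≤ Es)
    (hB : 0 ≤ B) (h1 : F ≤ a * Λ ^ 98 * Es) (h0 : 0 ≤ F)
    (h2 : Es ≤ C₂ * (4 * X) ^ 32) (h3 : Λ ^ 196 ≤ C₁ * Y) (h4 : X ^ 64 ≤ Y) (hY : 0 ≤ Y)
    (hC₁ : 0 ≤ C₁) :
    F ^ 2 * B ≤ a ^ 2 * C₁ * (C₂ * 4 ^ 32) ^ 2 * (Y * Y) * B := by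
  calc F ^ 2 * B ≤ (a * Λ ^ 98 * Es) ^ 2 * B := by gcongr
    _ ≤ (a * Λ ^ 98 * (C₂ * (4 * X) ^ 32)) ^ 2 * B := by gcongr
    _ = a ^ 2 * Λ ^ 196 * (C₂ * 4 ^ 32) ^ 2 * X ^ 64 * B := by ring
    _ ≤ a ^ 2 * (C₁ * Y) * (C₂ * 4 ^ 32) ^ 2 * Y * B := by gcongr
    _ = _ := by ring

/-- **Module S2b** -/
theorem pfST (hN : StN1w) (hH : StHlam) : StST := by
  classical
  intro ε hε
  obtain ⟨C₀, hC₀, hdata⟩ := data hN hH
  obtain ⟨C₁, hC₁, hlogp⟩ := log_pow_le 196 (half_pos hε)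
  obtain ⟨C₂, hC₂, hEm⟩ := Em_sum_le
  set δ' := min ε 1 / 200 with hδ'
  have hδ'0 : 0 < δ' := by positivity
  have hδ'ε : 64 * δ' ≤ ε / 2 := by
    have := min_le_left ε 1
    rw [hδ']
    linarith
  refine ⟨δ', hδ'0, by linarith, (4 * C₀) ^ 2 * C₁ * (C₂ * 4 ^ 32) ^ 2, ?_, ?_⟩
  · have h1 : 1 ≤ 4 * C₀ := by linarith
    have h2 : 1 ≤ (4 * C₀) ^ 2 := one_le_pow₀ h1
    have h3 : 1 ≤ (C₂ * 4 ^ 32) ^ 2 := one_le_pow₀ (by nlinarith)
    have h4 : 1 ≤ (4 * C₀) ^ 2 * C₁ := by nlinarith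
    nlinarith
  intro L B₁ B₂ u q n S w hL hu hB₁ hB₂ hq hS hTw hSw k hk
  have hl := log_ge_one hL
  set M₁ := C₀ * Real.log (3 + L) ^ 98 with hM₁
  have hM₁1 : 1 ≤ M₁ := by
    have : 1 ≤ Real.log (3 + L) ^ 98 := one_le_pow₀ hl
    nlinarith
  set N := ⌈Real.exp (L ^ δ')⌉₊ with hNdef
  have hLδ : 1 ≤ L ^ δ' := Real.one_le_rpow hL hδ'0.le
  have hexp2 : 2 ≤ Real.exp (L ^ δ') := by
    have h1 := Real.add_one_le_exp (L ^ δ')
    linarith
  have hNge : Real.exp (L ^ δ') ≤ N := Nat.le_ceil _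
  have hN2 : (2 : ℝ) ≤ N := hexp2.trans hNge
  have hN2' : 2 ≤ N := by exact_mod_cast hN2
  have hN0 : (0 : ℝ) < N := by linarith
  have hNle : (N : ℝ) ≤ 2 * Real.exp (L ^ δ') := by
    have := Nat.ceil_lt_add_one (Real.exp_pos (L ^ δ')).le
    linarith
  set Es := PS Em N with hEs
  have hEsv : Es = ∑ r ∈ Finset.range (N + 1), Em r := by
    rw [hEs]
    unfold PS
    rw [Nat.floor_natCast]
  have hEs1 : 1 ≤ Es := by
    rw [hEsv]
    have h1 : (1 : ℕ) ∈ Finset.range (N + 1) := by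
      rw [Finset.mem_range]
      omega
    calc (1 : ℝ) = Em 1 := Em_mult.map_one.symm
      _ ≤ _ := Finset.single_le_sum (f := fun n => Em n) (fun i _ => Em_nonneg i) h1
  have hEsle : Es ≤ C₂ * (4 * L ^ δ') ^ 32 := by
    refine (hEm N hN0.le).trans ?_
    have h1 : Real.log (1 + N) ≤ 3 * L ^ δ' := by
      have h2 : (1 : ℝ) + N ≤ Real.exp (3 * L ^ δ') := by
        have h3 : Real.exp (3 * L ^ δ') = Real.exp (L ^ δ') * (Real.exp (L ^ δ') *
            Real.exp (L ^ δ')) := by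
          rw [← Real.exp_add, ← Real.exp_add]
          ring_nf
        rw [h3]
        nlinarith [mul_nonneg (sub_nonneg.2 hexp2) (sub_nonneg.2 hexp2),
          mul_nonneg (sub_nonneg.2 hexp2) (mul_nonneg (sub_nonneg.2 hexp2) (sub_nonneg.2 hexp2))]
      calc Real.log (1 + N) ≤ Real.log (Real.exp (3 * L ^ δ')) :=
            Real.log_le_log (by linarith) h2
        _ = _ := Real.log_exp _
    have h4 : 0 ≤ Real.log (1 + N) := Real.log_nonneg (by linarith)
    gcongr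
    linarith
  have hex : ∀ h : ℤ, ∃ D : ℝ, h ∈ S → ∀ x : ℝ, 0 < x → |PS (κv h q) x - D| ≤ M₁ * Ew x := by
    intro h
    by_cases hh : h ∈ S
    · obtain ⟨D, hD⟩ := hdata L hL h q (hS h hh).1 hq.ne' (hS h hh).2.1
      exact ⟨D, fun _ => hD⟩
    · exact ⟨0, fun h1 => absurd h1 hh⟩
  choose D hD using hex
  have hcore := core_ST hH (S := S) (w := w) (fun h hh => (hS h hh).2.2) (q := q) (n := n) hN2' hu
    (by positivity : 0 ≤ M₁ * Es) hEsv hB₁ hB₂
    (fun h => (∑ n ∈ Finset.range N, ev h q n) * D h)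
    (fun h hh x hx => PS_cc_bound (by linarith) (hD h hh) hx (by omega))
    hTw (fun u' hu' k hk => hSw u' (le_trans (by gcongr) hu') k hk) hk
  have hfac : Es + 2 * (M₁ * Es) + M₁ * Es ≤
      (4 * C₀) * Real.log (3 + L) ^ 98 * Es := by
    have h4 : (4 * C₀) * Real.log (3 + L) ^ 98 = 4 * M₁ := by
      rw [hM₁]
      ring
    rw [h4]
    nlinarith
  have hfin := num_fin (a := 4 * C₀) (Λ := Real.log (3 + L)) (Es := Es) (X := L ^ δ')
    (Y := L ^ (ε / 2)) (C₁ := C₁) (C₂ := C₂) (B := B₁ + B₂)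
    (F := Es + 2 * (M₁ * Es) + M₁ * Es)
    (by positivity) (by linarith) (by linarith) (by linarith) hfac (by positivity) hEsle
    (hlogp L hL) (by
      rw [← Real.rpow_natCast, ← Real.rpow_mul (by linarith)]
      apply Real.rpow_le_rpow_of_exponent_le hL
      push_cast
      linarith) (by positivity) (by linarith)
  have hLL : L ^ ε = L ^ (ε / 2) * L ^ (ε / 2) := by
    rw [← Real.rpow_add (by linarith), add_halves]
  rw [hLL]
  exact hcore.trans hfin

end KW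
end P004H
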